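import Vale.Agent.P254.Local2

/-!
Simplices are strict local maximizers of the isotropic constant among all convex bodies of
`ℝ^n`, in every dimension, with an explicit Banach-Mazur neighbourhood.
-/

namespace Vale.Agent.Results.P254.LocalMax

open Set Finset _root_.P254

theorem result {n : ℕ} (hn : 0 < n) (w w' : Fin (n + 1) → Fin n → ℝ)
    (hw : AffineIndependent ℝ w) (hw' : AffineIndependent ℝ w')
    (K : Set (Fin n → ℝ)) (hKc : IsCompact K) (hKv : Convex ℝ K)
    (hsub : K ⊆ convexHull ℝ (range w)) (ρ : ℝ) (a : Fin n → ℝ)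
    (hρ : 1 - 1 / (4 * (n : ℝ) * ((n : ℝ) + 1) ^ 3 * ((n : ℝ) + 2) * ((n : ℝ) + 3)) ≤ ρ)
    (hin : ∀ x ∈ convexHull ℝ (range w), ρ • x + a ∈ K) :
    0 < vol K ∧ isoConst K ≤ isoConst (convexHull ℝ (range w')) ∧
      (isoConst K = isoConst (convexHull ℝ (range w')) →
        ∃ u : Fin (n + 1) → Fin n → ℝ, AffineIndependent ℝ u ∧ K = convexHull ℝ (range u)) := by
  have hn' : (0 : ℝ) < n := by exact_mod_cast hn
  have hdl : dl n = 1 / (4 * (n : ℝ) * ((n : ℝ) + 1) ^ 3 * ((n : ℝ) + 2) * ((n : ℝ) + 3)) := by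
    unfold dl eps0
    field_simp
  rw [← hdl] at hρ
  have hA := det_ne_of_affInd hw
  have hA' := det_ne_of_affInd hw'
  set T := aff (Aw w) (w 0) with hT
  have hS : T '' sig n = convexHull ℝ (range w) := simplex_hull w
  have hTinj : Function.Injective T := aff_injective _ hA
  set K' := T ⁻¹' K with hK'
  have hK's : K' ⊆ sig n := by
    intro x hx
    have h1 : T x ∈ T '' sig n := by
      rw [hS]
      exact hsub hx
    obtain ⟨y, hy, hyx⟩ := h1
    rw [← hTinj hyx]
    exact hy
  have hK'c : IsCompact K' :=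
    sig_compact.of_isClosed_subset (hKc.isClosed.preimage (aff_continuous _ _)) hK's
  have hK'v : Convex ℝ K' := by
    have := hKv.affine_preimage (affMap (Aw w) (w 0))
    rwa [affMap_coe] at this
  have himage : T '' K' = K := by
    apply Set.image_preimage_eq_of_subset
    intro x hx
    have h1 : x ∈ T '' sig n := by
      rw [hS]
      exact hsub hx
    obtain ⟨y, _, hyx⟩ := h1
    exact ⟨y, hyx⟩
  obtain ⟨a', ha'⟩ := exists_preimage (w 0) hA (ρ • w 0 + a)
  have hin' : ∀ x ∈ sig n, ρ • x + a' ∈ K' := by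
    intro x hx
    change T (ρ • x + a') ∈ K
    have e : T (ρ • x + a') = ρ • T x + a := by
      have h3 : T a' = ρ • w 0 + a := ha'
      simp only [hT, aff, Matrix.mulVec_add, Matrix.mulVec_smul] at h3 ⊢
      rw [smul_add]
      have h4 : (Aw w).mulVec a' = ρ • w 0 + a - w 0 := by
        rw [← h3]
        abel
      rw [h4]
      abel
    rw [e]
    apply hin
    rw [← hS]
    exact ⟨x, hx, rfl⟩
  obtain ⟨h1, h2, h3⟩ := local_sigma hn hρ hK'c hK'v hK's hin'
  have hΔ : convexHull ℝ (range w') = aff (Aw w') (w' 0) '' sig n := (simplex_hull w').symm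
  have hsigv : vol (sig n) ≠ 0 := by
    rw [sig_vol]; exact v0_pos.ne'
  have hDΔ : isoD (convexHull ℝ (range w')) = CC n := by
    rw [hΔ, isoD_image _ hA' sig_compact hsigv, sig_isoD]
  have hdK : isoD K = isoD K' := by
    rw [← himage]
    exact isoD_image _ hA hK'c h1.ne'
  have hexp : (0 : ℝ) < (1 : ℝ) / (2 * (n : ℝ)) := by positivity
  have hD0 := isoD_nonneg hKc
  have hC := CC_pos (n := n)
  refine ⟨?_, ?_, ?_⟩
  · rw [← himage, vol_image _ hA hK'c.measurableSet]
    have := abs_pos.2 hA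
    positivity
  · unfold isoConst
    rw [hDΔ, hdK]
    exact Real.rpow_le_rpow (isoD_nonneg hK'c) h2 hexp.le
  · intro heq
    unfold isoConst at heq
    rw [hDΔ] at heq
    have h4 : isoD K = CC n := (Real.rpow_left_inj hD0 hC.le hexp.ne').1 heq
    rw [hdK] at h4
    obtain ⟨u, hu, hue⟩ := h3 h4
    refine ⟨T ∘ u, ?_, ?_⟩
    · have h5 := hu.map' (affMap (Aw w) (w 0)) (by rw [affMap_coe]; exact hTinj)
      rwa [affMap_coe] at h5
    · rw [hT, hull_comp, ← hT, ← hue, himage]

end Vale.Agent.Results.P254.LocalMax
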