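import Vale.Agent.P254.Near

/-!
Local maximality of the simplex for the isotropic constant: an explicit neighbourhood of the
simplex, for bodies inscribed in the simplex and touching all its facet centroids.
-/

namespace Vale.Agent.Results.P254.NearSimplex

open Set Finset _root_.P254

theorem result {n : ℕ} (hn : 0 < n) (w w' : Fin (n + 1) → Fin n → ℝ)
    (hw : AffineIndependent ℝ w) (hw' : AffineIndependent ℝ w')
    (K : Set (Fin n → ℝ)) (hKc : IsCompact K) (hKv : Convex ℝ K)
    (hsub : K ⊆ convexHull ℝ (range w))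
    (hfac : ∀ l, (1 / (n : ℝ)) • ∑ k ∈ Finset.univ.erase l, w k ∈ K)
    (hthick : ∀ x ∈ convexHull ℝ (range w),
      (1 - 1 / ((n : ℝ) * ((n : ℝ) + 1) * ((n : ℝ) + 2) * ((n : ℝ) + 3))) • x
        + (1 / ((n : ℝ) * ((n : ℝ) + 1) * ((n : ℝ) + 2) * ((n : ℝ) + 3)))
          • ((1 / ((n : ℝ) + 1)) • ∑ k, w k) ∈ K) :
    0 < vol K ∧ isoConst K ≤ isoConst (convexHull ℝ (range w')) ∧
      (isoConst K = isoConst (convexHull ℝ (range w')) → K = convexHull ℝ (range w)) := by
  obtain ⟨h1, h2, h3⟩ := near_iso hn w hw hKc hKv hsub hfac hthick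
  have hA' := det_ne_of_affInd hw'
  have hΔ : convexHull ℝ (range w') = aff (Aw w') (w' 0) '' sig n := (simplex_hull w').symm
  have hsigv : vol (sig n) ≠ 0 := by
    rw [sig_vol]; exact v0_pos.ne'
  have hDΔ : isoD (convexHull ℝ (range w')) = CC n := by
    rw [hΔ, isoD_image _ hA' sig_compact hsigv, sig_isoD]
  have hexp : (0 : ℝ) < (1 : ℝ) / (2 * (n : ℝ)) := by
    have : (0 : ℝ) < n := by exact_mod_cast hn
    positivity
  have hD0 := isoD_nonneg hKc
  have hC := CC_pos (n := n)
  refine ⟨h1, ?_, ?_⟩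
  · unfold isoConst
    rw [hDΔ]
    exact Real.rpow_le_rpow hD0 h2 hexp.le
  · intro heq
    unfold isoConst at heq
    rw [hDΔ] at heq
    have h4 : isoD K = CC n := (Real.rpow_left_inj hD0 hC.le hexp.ne').1 heq
    by_contra hne
    have := h3 hne
    linarith

end Vale.Agent.Results.P254.NearSimplex
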