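import Vale.Agent.P254.Sandwich

/-!
The inequality of the strong isotropic conjecture for every compact set inside a simplex that
contains the part of the simplex where the sum of squares of barycentric coordinates is below
`2 / (n + 1)`.
-/

namespace Vale.Agent.Results.P254.Sandwich

open Set Finset _root_.P254

theorem result {n : ℕ} (hn : 0 < n) (w w' : Fin (n + 1) → Fin n → ℝ)
    (hw : AffineIndependent ℝ w) (hw' : AffineIndependent ℝ w')
    (K : Set (Fin n → ℝ)) (hKc : IsCompact K)
    (hsub : K ⊆ convexHull ℝ (range w))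
    (hball : ∀ c : Fin (n + 1) → ℝ, (∀ l, 0 ≤ c l) → ∑ l, c l = 1 →
      ∑ l, c l ^ 2 < 2 / ((n : ℝ) + 1) → ∑ l, c l • w l ∈ K) :
    0 < vol K ∧ isoConst K ≤ isoConst (convexHull ℝ (range w')) ∧
      (isoConst K = isoConst (convexHull ℝ (range w')) → K = convexHull ℝ (range w)) := by
  have hn' : (0 : ℝ) < n := by exact_mod_cast hn
  have hA := det_ne_of_affInd hw
  have hA' := det_ne_of_affInd hw'
  set T := aff (Aw w) (w 0) with hT
  have hS : T '' sig n = convexHull ℝ (range w) := simplex_hull w
  have hTinj : Function.Injective T := aff_injective _ hA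
  set K' := T ⁻¹' K with hK'
  have hK's : K' ⊆ sig n := by
    intro x hx
    have h1 : T x ∈ T '' sig n := by
      rw [hS]
      exact hsub hx
    obtain ⟨y, hy, hyx⟩ := h1
    rw [← hTinj hyx]
    exact hy
  have hK'c : IsCompact K' :=
    sig_compact.of_isClosed_subset (hKc.isClosed.preimage (aff_continuous _ _)) hK's
  have himage : T '' K' = K := by
    apply Set.image_preimage_eq_of_subset
    intro x hx
    have h1 : x ∈ T '' sig n := by
      rw [hS]
      exact hsub hx
    obtain ⟨y, _, hyx⟩ := h1
    exact ⟨y, hyx⟩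
  have hball' : ∀ x ∈ sig n, ∑ l, lam l x ^ 2 < 2 / ((n : ℝ) + 1) → x ∈ K' := by
    intro x hx h
    change T x ∈ K
    rw [hT, aff_w]
    exact hball _ hx (lam_sum x) h
  obtain ⟨h1, h2, h3⟩ := sandwich_sigma hn hK'c hK's hball'
  have hΔ : convexHull ℝ (range w') = aff (Aw w') (w' 0) '' sig n := (simplex_hull w').symm
  have hsigv : vol (sig n) ≠ 0 := by
    rw [sig_vol]; exact v0_pos.ne'
  have hDΔ : isoD (convexHull ℝ (range w')) = CC n := by
    rw [hΔ, isoD_image _ hA' sig_compact hsigv, sig_isoD]
  have hdK : isoD K = isoD K' := by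
    rw [← himage]
    exact isoD_image _ hA hK'c h1.ne'
  have hexp : (0 : ℝ) < (1 : ℝ) / (2 * (n : ℝ)) := by positivity
  have hD0 := isoD_nonneg hKc
  have hC := CC_pos (n := n)
  refine ⟨?_, ?_, ?_⟩
  · rw [← himage, vol_image _ hA hK'c.measurableSet]
    have := abs_pos.2 hA
    positivity
  · unfold isoConst
    rw [hDΔ, hdK]
    exact Real.rpow_le_rpow (isoD_nonneg hK'c) h2 hexp.le
  · intro heq
    unfold isoConst at heq
    rw [hDΔ] at heq
    have h4 : isoD K = CC n := (Real.rpow_left_inj hD0 hC.le hexp.ne').1 heq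
    rw [hdK] at h4
    by_contra hne
    have h5 : K' ≠ sig n := by
      intro h6
      apply hne
      rw [← himage, h6, hS]
    have := h3 h5
    linarith

end Vale.Agent.Results.P254.Sandwich
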