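import Vale.Agent.P254.Top

/-!
The strong isotropic inequality, with equality case and exact formula, for every convex hull of
`n + 2` points of `ℝ^n`, that is, for every polytope with at most `n + 2` vertices.
-/

namespace Vale.Agent.Results.P254.SmallPolytopes

open Set Finset _root_.P254

theorem result {n : ℕ} (hn : 0 < n) (w w' : Fin (n + 1) → Fin n → ℝ)
    (hw : AffineIndependent ℝ w) (hw' : AffineIndependent ℝ w') (p : Fin n → ℝ) :
    let K := convexHull ℝ (insert p (Set.range w))
    let Δ := convexHull ℝ (Set.range w')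
    0 < vol K ∧ 0 < vol Δ ∧ 0 < isoD Δ ∧
    (∃ c : Fin (n + 1) → ℝ, ∑ l, c l = 1 ∧ ∑ l, c l • w l = p ∧
      isoD K = (1 - (1 - aa c) * (1 - bb c)) * isoD Δ) ∧
    isoConst K ≤ isoConst Δ ∧
    (isoConst K = isoConst Δ →
      ∃ u : Fin (n + 1) → Fin n → ℝ, AffineIndependent ℝ u ∧ K = convexHull ℝ (Set.range u)) := by
  intro K Δ
  have hA := det_ne_of_affInd hw
  have hA' := det_ne_of_affInd hw'
  obtain ⟨p', hp'⟩ := exists_preimage (w 0) hA p
  have hK : K = aff (Aw w) (w 0) '' K0 p' := by
    rw [K_image, hp']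
  have hΔ : Δ = aff (Aw w') (w' 0) '' sig n := (simplex_hull w').symm
  have hsigv : vol (sig n) ≠ 0 := by
    rw [sig_vol]; exact v0_pos.ne'
  have hDK : isoD K = (1 - (1 - aa (fun l => lam l p')) * (1 - bb (fun l => lam l p'))) * CC n := by
    rw [hK, isoD_image _ hA (K0_compact p') (K0_vol_ne p'), K0_isoD]
  have hDΔ : isoD Δ = CC n := by
    rw [hΔ, isoD_image _ hA' sig_compact hsigv, sig_isoD]
  have hc1 : ∑ l, lam l p' = 1 := lam_sum p'
  have ha0 := aa_nonneg (fun l => lam l p')
  have ha1 := aa_le_one (fun l => lam l p') hc1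
  have hb0 := bb_pos (fun l => lam l p') hc1
  have hb1 := bb_le_one (fun l => lam l p') hc1
  set a := aa (fun l => lam l p') with ha
  set b := bb (fun l => lam l p') with hb
  have hρ0 : 0 ≤ 1 - (1 - a) * (1 - b) := by nlinarith
  have hρ1 : 1 - (1 - a) * (1 - b) ≤ 1 := by nlinarith
  have hC := CC_pos (n := n)
  have hDK0 : 0 ≤ isoD K := by rw [hDK]; positivity
  have hle : isoD K ≤ isoD Δ := by
    rw [hDK, hDΔ]; nlinarith
  have hexp : (0 : ℝ) < (1 : ℝ) / (2 * (n : ℝ)) := by
    have : (0 : ℝ) < n := by exact_mod_cast hn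
    positivity
  refine ⟨?_, ?_, ?_, ⟨fun l => lam l p', hc1, ?_, ?_⟩, ?_, ?_⟩
  · rw [hK, vol_image _ hA (K0_compact p').measurableSet, K0_vol]
    have := abs_pos.2 hA
    have := TT_pos p'
    have := v0_pos (n := n)
    positivity
  · rw [hΔ, vol_image _ hA' sig_compact.measurableSet, sig_vol]
    have := abs_pos.2 hA'
    have := v0_pos (n := n)
    positivity
  · rw [hDΔ]; exact hC
  · rw [← aff_w, hp']
  · rw [hDK, hDΔ]
  · exact Real.rpow_le_rpow hDK0 hle hexp.le
  · intro heq
    have h1 : isoD K = isoD Δ :=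
      (Real.rpow_left_inj hDK0 (by rw [hDΔ]; exact hC.le) hexp.ne').1 heq
    rw [hDK, hDΔ] at h1
    have h2 : (1 - a) * (1 - b) = 0 := by
      have : (1 - (1 - a) * (1 - b)) * CC n = 1 * CC n := by rw [h1, one_mul]
      have := mul_right_cancel₀ hC.ne' this
      linarith
    rcases mul_eq_zero.1 h2 with h3 | h3
    · -- exactly one positive coordinate
      have ha' : aa (fun l => lam l p') = 1 := by rw [← ha]; linarith
      obtain ⟨k, hk⟩ := exists_pos p'
      have hK0 : K0 p' = Sk p' k := by
        apply Set.Subset.antisymm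
        · intro x hx
          rw [K0_union] at hx
          obtain ⟨⟨k', hk'⟩, hxk⟩ := Set.mem_iUnion.1 hx
          have : k = k' := aa_eq_one (fun l => lam l p') hc1 ha' hk hk'
          rw [this]
          exact hxk
        · rw [K0_union]
          exact Set.subset_iUnion (fun k : {k : Fin (n + 1) // 0 < lam k p'} => Sk p' k.1) ⟨k, hk⟩
      have hdet : (Aw w * Ak p' k).det ≠ 0 := by
        rw [Matrix.det_mul, Ak_det]
        exact mul_ne_zero hA hk.ne'
      obtain ⟨u, hu, hue⟩ := simplex_image ((Aw w).mulVec (lam k 0 • (p' - ee k)) + w 0) hdet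
      refine ⟨u, hu, ?_⟩
      rw [hK, hK0, Sk, Tk_eq_aff, aff_comp, hue]
    · -- no negative coordinate
      have hb' : bb (fun l => lam l p') = 1 := by rw [← hb]; linarith
      have hnn := bb_eq_one (fun l => lam l p') hc1 hb'
      have hK0 : K0 p' = sig n := by
        rw [K0_eq]
        ext x
        constructor
        · rintro ⟨s, hs, hx⟩ l
          exact (mul_nonneg hs (hnn l)).trans (hx l)
        · intro hx
          exact ⟨0, le_rfl, fun l => by simpa using hx l⟩
      refine ⟨w, hw, ?_⟩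
      rw [hK, hK0, simplex_hull]

end Vale.Agent.Results.P254.SmallPolytopes
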